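/-
Theorem A++ (helper59): f : S_X -> S_Y a surjective isometry of unit spheres of real normed spaces.
(1) For ALL X, Y (no convexity, no compactness): if x, y, y - x are unit then
    |2 f(x) - f(y)| = |2 x - y|  (Mazur-Ulam style doubling along the two involutions).
(2) If X is strictly convex: f is odd and f(y - x) = f(y) - f(x) on unit triples.
-/
import Mathlib

namespace Vale.Agent.Lib.P084.UC

variable {X Y : Type*} [NormedAddCommGroup X] [NormedSpace ℝ X] [NormedAddCommGroup Y]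
  [NormedSpace ℝ Y]

/-- `f` is a surjective isometry of the unit sphere of `X` onto the unit sphere of `Y`
(`f` is a total function; its values off the sphere play no role). -/
structure IsSphereIso (f : X → Y) : Prop where
  norm_eq : ∀ x : X, ‖x‖ = 1 → ‖f x‖ = 1
  iso : ∀ x x' : X, ‖x‖ = 1 → ‖x'‖ = 1 → ‖f x - f x'‖ = ‖x - x'‖
  surj : ∀ z : Y, ‖z‖ = 1 → ∃ x : X, ‖x‖ = 1 ∧ f x = z

theorem two_half {W : Type*} [NormedAddCommGroup W] [NormedSpace ℝ W] (a b : W) :
    ‖a - (b - a)‖ = 2 * ‖a - (1 / 2 : ℝ) • b‖ := by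
  have : a - (b - a) = (2 : ℝ) • (a - (1 / 2 : ℝ) • b) := by
    rw [smul_sub, smul_smul]
    norm_num
    rw [two_smul]
    abel
  rw [this, norm_smul]
  norm_num

theorem half_flip {W : Type*} [NormedAddCommGroup W] [NormedSpace ℝ W] (a b : W) :
    ‖(b - a) - (1 / 2 : ℝ) • b‖ = ‖a - (1 / 2 : ℝ) • b‖ := by
  have : (b - a) - (1 / 2 : ℝ) • b = -(a - (1 / 2 : ℝ) • b) := by
    have hb : b = (1 / 2 : ℝ) • b + (1 / 2 : ℝ) • b := by
      rw [← add_smul]; norm_num
    nth_rewrite 1 [hb]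
    abel
  rw [this, norm_neg]

theorem tri {W : Type*} [NormedAddCommGroup W] (a b c : W) :
    ‖a - b‖ ≤ ‖a - c‖ + ‖b - c‖ := by
  have : a - b = (a - c) - (b - c) := by abel
  rw [this]
  exact norm_sub_le _ _

/-- Abstract doubling: two functions on a set, two involution-like maps. -/
theorem doubling_aux {E : Type*} (A B : E → ℝ) (ρ ι : E → E) (M : ℝ)
    (hAM : ∀ u, A u ≤ M)
    (hAρ : ∀ u, A (ρ u) = A u) (hBι : ∀ u, B (ι u) = B u)
    (h1 : ∀ u, 2 * A u ≤ B u + B (ρ u)) (h2 : ∀ u, 2 * B u ≤ A u + A (ι u)) (u : E) :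
    A u = B u := by
  -- step lemma
  have step : ∀ (d : ℝ) (v : E), d ≤ A v - B v →
      d ≤ A (ι (ρ v)) - B (ι (ρ v)) ∧ A v + 2 * d ≤ A (ι (ρ v)) := by
    intro d v hv
    have e1 := h1 v
    have e2 := h2 (ρ v)
    have e3 := hAρ v
    have e4 := hBι (ρ v)
    constructor <;> linarith
  have key : ∀ (d : ℝ) (v : E), 0 < d → d ≤ A v - B v → False := by
    intro d v hd hv
    have iter : ∀ n : ℕ, ∃ w : E, d ≤ A w - B w ∧ A v + n * (2 * d) ≤ A w := by
      intro n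
      induction n with
      | zero => exact ⟨v, hv, by simp⟩
      | succ n ih =>
        obtain ⟨w, hw1, hw2⟩ := ih
        obtain ⟨s1, s2⟩ := step d w hw1
        refine ⟨ι (ρ w), s1, ?_⟩
        push_cast
        linarith
    obtain ⟨n, hn⟩ := exists_nat_gt ((M - A v) / (2 * d))
    obtain ⟨w, -, hw⟩ := iter n
    have h2d : 0 < 2 * d := by linarith
    rw [div_lt_iff₀ h2d] at hn
    have := hAM w
    linarith
  by_contra hne
  rcases lt_or_gt_of_ne hne with hlt | hgt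
  · -- A u < B u : pass to ι u
    have e := h2 u
    have e4 := hBι u
    exact key (B u - A u) (ι u) (by linarith) (by linarith)
  · exact key (A u - B u) u (by linarith) le_rfl

omit [NormedSpace ℝ X] [NormedSpace ℝ Y] in
/-- Common data for the main theorems. -/
theorem IsSphereIso.exists_inv {f : X → Y} (hf : IsSphereIso f) :
    ∃ g : Y → X, ∀ z : Y, ‖z‖ = 1 → ‖g z‖ = 1 ∧ f (g z) = z := by
  classical
  have hg : ∀ z : Y, ∃ u : X, ‖z‖ = 1 → ‖u‖ = 1 ∧ f u = z := by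
    intro z
    by_cases hz : ‖z‖ = 1
    · obtain ⟨u, hu, hfu⟩ := hf.surj z hz
      exact ⟨u, fun _ => ⟨hu, hfu⟩⟩
    · exact ⟨0, fun h => absurd h hz⟩
  choose g hg using hg
  exact ⟨g, hg⟩

/-- Doubling theorem: no convexity at all. If `x, y, y - x` are unit then
`‖f x - (1/2) f y‖ = ‖x - (1/2) y‖`; moreover, with `x' ` the point with `f x' = f y - f x`,
that point is unit, `‖y - x'‖ = 1` and `‖x - x'‖ = 2 ‖x - (1/2) y‖`. -/
theorem IsSphereIso.doubling {f : X → Y} (hf : IsSphereIso f) {x y : X}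
    (hx : ‖x‖ = 1) (hy : ‖y‖ = 1) (hyx : ‖y - x‖ = 1) :
    ‖f x - (1 / 2 : ℝ) • f y‖ = ‖x - (1 / 2 : ℝ) • y‖ := by
  obtain ⟨g, hg⟩ := hf.exists_inv
  have hfy : ‖f y‖ = 1 := hf.norm_eq y hy
  let E : Type _ := {u : X // ‖u‖ = 1 ∧ ‖y - u‖ = 1}
  have hsub : ∀ u : E, ‖f y - f u.1‖ = 1 := fun u => by
    rw [hf.iso y u.1 hy u.2.1]; exact u.2.2
  have hιf : ∀ u : E, f (g (f y - f u.1)) = f y - f u.1 := fun u => (hg _ (hsub u)).2
  have hιn : ∀ u : E, ‖g (f y - f u.1)‖ = 1 := fun u => (hg _ (hsub u)).1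
  let ρ : E → E := fun u => ⟨y - u.1, u.2.2, by rw [sub_sub_cancel]; exact u.2.1⟩
  let ι : E → E := fun u => ⟨g (f y - f u.1), hιn u, by
    rw [← hf.iso y _ hy (hιn u), hιf u, sub_sub_cancel]; exact hf.norm_eq u.1 u.2.1⟩
  let A : E → ℝ := fun u => ‖u.1 - (1 / 2 : ℝ) • y‖
  let B : E → ℝ := fun u => ‖f u.1 - (1 / 2 : ℝ) • f y‖
  have hAM : ∀ u : E, A u ≤ 1 + ‖(1 / 2 : ℝ) • y‖ := fun u => by
    calc A u ≤ ‖u.1‖ + ‖(1 / 2 : ℝ) • y‖ := norm_sub_le _ _
      _ = _ := by rw [u.2.1]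
  have hAρ : ∀ u : E, A (ρ u) = A u := fun u => half_flip u.1 y
  have hBι : ∀ u : E, B (ι u) = B u := fun u => by
    show ‖f (g (f y - f u.1)) - (1 / 2 : ℝ) • f y‖ = _
    rw [hιf u]
    exact half_flip (f u.1) (f y)
  have h1 : ∀ u : E, 2 * A u ≤ B u + B (ρ u) := fun u => by
    have e : ‖u.1 - (y - u.1)‖ = 2 * A u := two_half u.1 y
    rw [← e, ← hf.iso u.1 (y - u.1) u.2.1 u.2.2]
    exact tri _ _ _
  have h2 : ∀ u : E, 2 * B u ≤ A u + A (ι u) := fun u => by
    have e : ‖f u.1 - (f y - f u.1)‖ = 2 * B u := two_half (f u.1) (f y)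
    rw [← e, ← hιf u, hf.iso u.1 _ u.2.1 (hιn u)]
    exact tri _ _ _
  exact (doubling_aux A B ρ ι _ hAM hAρ hBι h1 h2 ⟨x, hx, hyx⟩).symm

section Strict

variable [StrictConvexSpace ℝ X]

/-- Oddness from strict convexity of `X`. -/
theorem IsSphereIso.odd {f : X → Y} (hf : IsSphereIso f) {x : X}
    (hx : ‖x‖ = 1) : f (-x) = - f x := by
  obtain ⟨x', hx', hfx'⟩ := hf.surj (- f x) (by rw [norm_neg]; exact hf.norm_eq x hx)
  have h2 : ‖x - x'‖ = 2 := by
    rw [← hf.iso x x' hx hx', hfx', sub_neg_eq_add, ← two_smul ℝ (f x), norm_smul,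
      hf.norm_eq x hx]
    norm_num
  have hm : (0 : X) = midpoint ℝ x x' := by
    apply eq_midpoint_of_dist_eq_half
    · rw [dist_eq_norm, dist_eq_norm, sub_zero, hx, h2]; norm_num
    · rw [dist_eq_norm, dist_eq_norm, zero_sub, norm_neg, hx', h2]; norm_num
  have hxx' : x' = -x := by
    have : midpoint ℝ x x' = (1 / 2 : ℝ) • (x + x') := by
      rw [midpoint_eq_smul_add]; norm_num
    rw [this] at hm
    have h0 : x + x' = 0 := by
      have h3 := congrArg (fun t => (2 : ℝ) • t) hm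
      simp only [smul_zero, smul_smul] at h3
      norm_num at h3
      exact h3.symm
    exact eq_neg_of_add_eq_zero_right h0
  rw [← hxx', hfx']

/-- Theorem A++: additivity on unit triples, `X` strictly convex, `Y` arbitrary. -/
theorem IsSphereIso.sub_eq {f : X → Y} (hf : IsSphereIso f) {x y : X}
    (hx : ‖x‖ = 1) (hy : ‖y‖ = 1) (hyx : ‖y - x‖ = 1) : f (y - x) = f y - f x := by
  have hsub : ‖f y - f x‖ = 1 := by rw [hf.iso y x hy hx]; exact hyx
  obtain ⟨v, hv, hfv⟩ := hf.surj _ hsub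
  have hyv : ‖y - v‖ = 1 := by
    rw [← hf.iso y v hy hv, hfv, sub_sub_cancel]; exact hf.norm_eq x hx
  -- the doubling theorem at x and at v
  have d1 := hf.doubling hx hy hyx
  have d2 := hf.doubling hv hy hyv
  have hB : ‖f v - (1 / 2 : ℝ) • f y‖ = ‖f x - (1 / 2 : ℝ) • f y‖ := by
    rw [hfv]
    have : (f y - f x) - (1 / 2 : ℝ) • f y = -(f x - (1 / 2 : ℝ) • f y) := by
      have hb : f y = (1 / 2 : ℝ) • f y + (1 / 2 : ℝ) • f y := by
        rw [← add_smul]; norm_num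
      nth_rewrite 1 [hb]
      abel
    rw [this, norm_neg]
  have hd : ‖x - v‖ = 2 * ‖x - (1 / 2 : ℝ) • y‖ := by
    rw [← hf.iso x v hx hv, hfv, ← d1]
    have : f x - (f y - f x) = (2 : ℝ) • (f x - (1 / 2 : ℝ) • f y) := by
      rw [smul_sub, smul_smul]
      norm_num
      rw [two_smul]
      abel
    rw [this, norm_smul]
    norm_num
  have hm : (1 / 2 : ℝ) • y = midpoint ℝ x v := by
    apply eq_midpoint_of_dist_eq_half
    · rw [dist_eq_norm, dist_eq_norm, hd]; ring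
    · rw [dist_eq_norm, dist_eq_norm, hd, norm_sub_rev, ← d2, hB, d1]; ring
  have hv' : v = y - x := by
    have h3 : midpoint ℝ x v = (1 / 2 : ℝ) • (x + v) := by
      rw [midpoint_eq_smul_add]; norm_num
    rw [h3] at hm
    have h4 := congrArg (fun t => (2 : ℝ) • t) hm
    simp only [smul_smul] at h4
    norm_num at h4
    rw [h4]
    abel
  rw [← hv', hfv]

end Strict

end Vale.Agent.Lib.P084.UC
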